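import Mathlib

/-!
Banach-Zarecki lemma: a continuous function of bounded variation with the Lusin N property on a
compact interval is absolutely continuous.
-/

open MeasureTheory Set Filter Topology
open scoped ENNReal

namespace Vale.Agent.Lib.P137S

variable {w : ℝ → ℝ} {a b : ℝ}

/-- Dyadic break points. -/
noncomputable def dy (a b : ℝ) (m i : ℕ) : ℝ := a + i * ((b - a) / 2 ^ m)

lemma dy_mono (hab : a < b) (m : ℕ) : Monotone (dy a b m) := by
  intro i j hij
  have h : 0 < (b - a) / 2 ^ m := by positivity [sub_pos.2 hab]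
  unfold dy
  have : (i : ℝ) ≤ j := by exact_mod_cast hij
  nlinarith

lemma dy_zero (m : ℕ) : dy a b m 0 = a := by simp [dy]

lemma dy_top (m : ℕ) : dy a b m (2 ^ m) = b := by
  unfold dy
  push_cast
  field_simp
  ring

lemma exists_dy (m k : ℕ) {t : ℝ} (ht : a < t) (htk : t ≤ dy a b m k) :
    ∃ i < k, t ∈ Ioc (dy a b m i) (dy a b m (i + 1)) := by
  induction k with
  | zero => simp [dy_zero] at htk; linarith
  | succ k ih =>
    by_cases h : t ≤ dy a b m k
    · obtain ⟨i, hi, hit⟩ := ih h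
      exact ⟨i, by omega, hit⟩
    · exact ⟨k, by omega, not_le.1 h, htk⟩

lemma dy_Ioc_subset (hab : a < b) (m : ℕ) {i : ℕ} (hi : i < 2 ^ m) :
    Ioc (dy a b m i) (dy a b m (i + 1)) ⊆ Ioc a b := by
  apply Ioc_subset_Ioc
  · have := dy_mono (a := a) (b := b) hab m (Nat.zero_le i)
    rwa [dy_zero] at this
  · have := dy_mono (a := a) (b := b) hab m (Nat.succ_le_of_lt hi)
    rwa [dy_top] at this

lemma measurableSet_image_Ioc (hc : ContinuousOn w (Icc a b)) {c d : ℝ}
    (hs : Ioc c d ⊆ Icc a b) : MeasurableSet (w '' Ioc c d) := by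
  have : IsPreconnected (w '' Ioc c d) :=
    isPreconnected_Ioc.image w (hc.mono hs)
  exact this.ordConnected.measurableSet

/-- The dyadic counting function. -/
noncomputable def dyCount (w : ℝ → ℝ) (a b : ℝ) (m : ℕ) (y : ℝ) : ℝ≥0∞ :=
  ∑ i ∈ Finset.range (2 ^ m), (w '' Ioc (dy a b m i) (dy a b m (i + 1))).indicator 1 y

lemma measurable_dyCount (hab : a < b) (hc : ContinuousOn w (Icc a b)) (m : ℕ) :
    Measurable (dyCount w a b m) := by
  unfold dyCount
  refine Finset.measurable_sum _ fun i hi => ?_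
  refine measurable_one.indicator (measurableSet_image_Ioc hc ?_)
  exact (dy_Ioc_subset hab m (Finset.mem_range.1 hi)).trans Ioc_subset_Icc_self

lemma volume_image_le (s : Set ℝ) : volume (w '' s) ≤ eVariationOn w s := by
  refine (Real.volume_le_diam _).trans ?_
  refine Metric.ediam_le ?_
  rintro _ ⟨x, hx, rfl⟩ _ ⟨y, hy, rfl⟩
  exact eVariationOn.edist_le w hx hy

lemma sum_eVariationOn_le (hab : a < b) (m k : ℕ) :
    ∑ i ∈ Finset.range k, eVariationOn w (Ioc (dy a b m i) (dy a b m (i + 1)))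
      ≤ eVariationOn w (Ioc a (dy a b m k)) := by
  induction k with
  | zero => simp [dy_zero]
  | succ k ih =>
    rw [Finset.sum_range_succ]
    refine (add_le_add_left ih _).trans ?_
    refine (eVariationOn.add_le_union w ?_).trans (eVariationOn.mono w ?_)
    · rintro x ⟨_, hx⟩ y ⟨hy, _⟩
      exact hx.trans hy.le
    · rintro x (⟨hx1, hx2⟩ | ⟨hx1, hx2⟩)
      · exact ⟨hx1, hx2.trans (dy_mono hab m (Nat.le_succ k))⟩
      · refine ⟨?_, hx2⟩
        refine lt_of_le_of_lt ?_ hx1
        have := dy_mono (a := a) (b := b) hab m (Nat.zero_le k)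
        rwa [dy_zero] at this

lemma lintegral_dyCount_le (hab : a < b) (hc : ContinuousOn w (Icc a b)) (m : ℕ) :
    ∫⁻ y, dyCount w a b m y ≤ eVariationOn w (Icc a b) := by
  unfold dyCount
  rw [lintegral_finsetSum']
  · have h1 : ∀ i ∈ Finset.range (2 ^ m),
        ∫⁻ y, (w '' Ioc (dy a b m i) (dy a b m (i + 1))).indicator 1 y
          ≤ eVariationOn w (Ioc (dy a b m i) (dy a b m (i + 1))) := by
      intro i hi
      have hs := (dy_Ioc_subset hab m (Finset.mem_range.1 hi)).trans Ioc_subset_Icc_self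
      rw [lintegral_indicator (measurableSet_image_Ioc hc hs)]
      simpa using volume_image_le _
    refine (Finset.sum_le_sum h1).trans ((sum_eVariationOn_le hab m _).trans ?_)
    rw [dy_top]
    exact eVariationOn.mono w Ioc_subset_Icc_self
  · intro i hi
    refine (measurable_one.indicator (measurableSet_image_Ioc hc ?_)).aemeasurable
    exact (dy_Ioc_subset hab m (Finset.mem_range.1 hi)).trans Ioc_subset_Icc_self

lemma card_le_dyCount (hab : a < b) (K : Finset ℝ) {y : ℝ}
    (hK : ∀ t ∈ K, t ∈ Ioc a b ∧ w t = y) :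
    ∀ᶠ m in atTop, (K.card : ℝ≥0∞) ≤ dyCount w a b m y := by
  classical
  have hex : ∀ m : ℕ, ∀ t : ℝ, ∃ i : ℕ, t ∈ Ioc a b →
      (i < 2 ^ m ∧ t ∈ Ioc (dy a b m i) (dy a b m (i + 1))) := by
    intro m t
    by_cases ht : t ∈ Ioc a b
    · obtain ⟨i, hi, hit⟩ := exists_dy (a := a) (b := b) m (2 ^ m) ht.1
        (by rw [dy_top]; exact ht.2)
      exact ⟨i, fun _ => ⟨hi, hit⟩⟩
    · exact ⟨0, fun h => absurd h ht⟩
  choose idx hidx using hex
  -- separation: distinct points get distinct indices eventually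
  have hsep : ∀ t ∈ K, ∀ s ∈ K, t ≠ s → ∀ᶠ m in atTop, idx m t ≠ idx m s := by
    intro t ht s hs hts
    have hpos : 0 < |t - s| := abs_pos.2 (sub_ne_zero.2 hts)
    have hlim : Tendsto (fun m : ℕ => (b - a) / 2 ^ m) atTop (𝓝 0) := by
      have := tendsto_pow_atTop_nhds_zero_of_lt_one (r := (1 / 2 : ℝ)) (by norm_num) (by norm_num)
      have h2 := this.const_mul (b - a)
      simp only [mul_zero] at h2
      refine h2.congr fun m => ?_
      simp [div_eq_mul_inv]
    filter_upwards [hlim.eventually (gt_mem_nhds hpos)] with m hm heq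
    obtain ⟨_, h1⟩ := hidx m t (hK t ht).1
    obtain ⟨_, h2⟩ := hidx m s (hK s hs).1
    rw [heq] at h1
    have : |t - s| ≤ (b - a) / 2 ^ m := by
      have e : dy a b m (idx m s + 1) - dy a b m (idx m s) = (b - a) / 2 ^ m := by
        unfold dy; push_cast; ring
      rw [abs_le]
      constructor <;> linarith [h1.1, h1.2, h2.1, h2.2]
    linarith
  have hall : ∀ᶠ m in atTop, ∀ t ∈ K, ∀ s ∈ K, t ≠ s → idx m t ≠ idx m s := by
    rw [Filter.eventually_all_finset]
    intro t ht
    rw [Filter.eventually_all_finset]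
    intro s hs
    by_cases hts : t = s
    · exact Eventually.of_forall fun m h => absurd hts h
    · filter_upwards [hsep t ht s hs hts] with m hm _ using hm
  filter_upwards [hall] with m hm
  have hinj : Set.InjOn (idx m) K := by
    intro t ht s hs heq
    by_contra hne
    exact hm t ht s hs hne heq
  have hcard : (K.image (idx m)).card = K.card := Finset.card_image_of_injOn hinj
  have hsub : K.image (idx m) ⊆ Finset.range (2 ^ m) := by
    intro i hi
    obtain ⟨t, ht, rfl⟩ := Finset.mem_image.1 hi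
    exact Finset.mem_range.2 (hidx m t (hK t ht).1).1
  unfold dyCount
  calc (K.card : ℝ≥0∞) = ∑ i ∈ K.image (idx m), (1 : ℝ≥0∞) := by simp [hcard]
    _ = ∑ i ∈ K.image (idx m),
          (w '' Ioc (dy a b m i) (dy a b m (i + 1))).indicator 1 y := by
        refine Finset.sum_congr rfl fun i hi => ?_
        obtain ⟨t, ht, rfl⟩ := Finset.mem_image.1 hi
        have : y ∈ w '' Ioc (dy a b m (idx m t)) (dy a b m (idx m t + 1)) :=
          ⟨t, (hidx m t (hK t ht).1).2, (hK t ht).2⟩
        simp [this]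
    _ ≤ _ := Finset.sum_le_sum_of_subset hsub

/-- Banach-Zarecki. -/
theorem ac_of_bv_lusin (hab : a < b) (hc : ContinuousOn w (Icc a b))
    (hv : BoundedVariationOn w (Icc a b))
    (hN : ∀ S : Set ℝ, S ⊆ Icc a b → volume S = 0 → volume (w '' S) = 0) :
    AbsolutelyContinuousOnInterval w a b := by
  classical
  rw [absolutelyContinuousOnInterval_iff]
  by_contra hcon
  push Not at hcon
  obtain ⟨ε, hε, hE⟩ := hcon
  have hE' : ∀ n : ℕ, ∃ E : ℕ × (ℕ → ℝ × ℝ), E ∈ AbsolutelyContinuousOnInterval.disjWithin a b ∧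
      ∑ i ∈ Finset.range E.1, dist (E.2 i).1 (E.2 i).2 < (1 / 2 : ℝ) ^ n ∧
      ε ≤ ∑ i ∈ Finset.range E.1, dist (w (E.2 i).1) (w (E.2 i).2) := fun n => by
    obtain ⟨E, h1, h2, h3⟩ := hE ((1 / 2 : ℝ) ^ n) (by positivity)
    exact ⟨E, h1, h2, h3⟩
  choose E hEdisj hElen hEvar using hE'
  have huab : uIoc a b = Ioc a b := uIoc_of_le hab.le
  have hsub : ∀ n i, i < (E n).1 → uIoc ((E n).2 i).1 ((E n).2 i).2 ⊆ Ioc a b := by
    intro n i hi
    rw [← huab]
    exact AbsolutelyContinuousOnInterval.uIoc_subset_of_mem_disjWithin (hEdisj n) hi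
  have hIcc : ∀ n i, i ∈ Finset.range (E n).1 →
      ((E n).2 i).1 ∈ Icc a b ∧ ((E n).2 i).2 ∈ Icc a b := by
    intro n i hi
    have := (hEdisj n).1 i hi
    rwa [uIcc_of_le hab.le] at this
  -- the images
  set A : ℕ → ℕ → Set ℝ := fun n i => w '' uIoc ((E n).2 i).1 ((E n).2 i).2 with hA
  have hAmeas : ∀ n i, i < (E n).1 → MeasurableSet (A n i) := by
    intro n i hi
    have hs := hsub n i hi
    simp only [hA, uIoc] at hs ⊢
    exact measurableSet_image_Ioc hc (hs.trans Ioc_subset_Icc_self)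
  set G : ℕ → ℝ → ℝ≥0∞ := fun n y =>
    ∑ i ∈ Finset.range (E n).1, (A n i).indicator 1 y with hG
  have hGmeas : ∀ n, Measurable (G n) := by
    intro n
    refine Finset.measurable_sum _ fun i hi => ?_
    exact measurable_one.indicator (hAmeas n i (Finset.mem_range.1 hi))
  -- the dominating function
  set Nb : ℝ → ℝ≥0∞ := fun y => liminf (fun m => dyCount w a b m y) atTop with hNb
  have hNbmeas : Measurable Nb :=
    Measurable.liminf fun m => measurable_dyCount hab hc m
  have hNbint : ∫⁻ y, Nb y ≠ ∞ := by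
    have h1 : ∫⁻ y, Nb y ≤ eVariationOn w (Icc a b) := by
      refine (lintegral_liminf_le fun m => measurable_dyCount hab hc m).trans ?_
      exact Filter.liminf_le_of_frequently_le' (Frequently.of_forall fun m =>
        lintegral_dyCount_le hab hc m)
    exact ne_top_of_le_ne_top hv h1
  have hcardNb : ∀ (K : Finset ℝ) (y : ℝ), (∀ t ∈ K, t ∈ Ioc a b ∧ w t = y) →
      (K.card : ℝ≥0∞) ≤ Nb y := by
    intro K y hK
    exact le_liminf_of_le (by isBoundedDefault) (card_le_dyCount hab K hK)
  -- domination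
  have hGle : ∀ n y, G n y ≤ Nb y := by
    intro n y
    have hex : ∀ i : ℕ, ∃ t : ℝ, (i < (E n).1 ∧ y ∈ A n i) →
        t ∈ uIoc ((E n).2 i).1 ((E n).2 i).2 ∧ w t = y := by
      intro i
      by_cases h : i < (E n).1 ∧ y ∈ A n i
      · obtain ⟨t, ht, hty⟩ := h.2
        exact ⟨t, fun _ => ⟨ht, hty⟩⟩
      · exact ⟨0, fun h' => absurd h' h⟩
    choose pt hpt using hex
    set I := (Finset.range (E n).1).filter (fun i => y ∈ A n i) with hI
    have hGI : G n y = (I.card : ℝ≥0∞) := by
      simp only [hG, Set.indicator_apply, Pi.one_apply, hI]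
      rw [Finset.sum_ite, Finset.sum_const_zero, add_zero, Finset.sum_const]
      simp
    have hinj : Set.InjOn pt I := by
      intro i hi j hj hij
      by_contra hne
      have hi' := Finset.mem_filter.1 hi
      have hj' := Finset.mem_filter.1 hj
      have hdisj := (hEdisj n).2 (Finset.mem_coe.2 hi'.1) (Finset.mem_coe.2 hj'.1) hne
      have h1 := (hpt i ⟨Finset.mem_range.1 hi'.1, hi'.2⟩).1
      have h2 := (hpt j ⟨Finset.mem_range.1 hj'.1, hj'.2⟩).1
      rw [hij] at h1
      exact Set.disjoint_left.1 hdisj h1 h2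
    rw [hGI, ← Finset.card_image_of_injOn hinj]
    refine hcardNb _ y ?_
    intro t ht
    obtain ⟨i, hi, rfl⟩ := Finset.mem_image.1 ht
    have hi' := Finset.mem_filter.1 hi
    have h3 := hpt i ⟨Finset.mem_range.1 hi'.1, hi'.2⟩
    exact ⟨hsub n i (Finset.mem_range.1 hi'.1) h3.1, h3.2⟩
  -- lower bound
  have hGlow : ∀ n, ENNReal.ofReal ε ≤ ∫⁻ y, G n y := by
    intro n
    have h1 : ∫⁻ y, G n y = ∑ i ∈ Finset.range (E n).1, volume (A n i) := by
      simp only [hG]
      rw [lintegral_finsetSum']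
      · refine Finset.sum_congr rfl fun i hi => ?_
        rw [lintegral_indicator (hAmeas n i (Finset.mem_range.1 hi))]
        simp
      · intro i hi
        exact (measurable_one.indicator (hAmeas n i (Finset.mem_range.1 hi))).aemeasurable
    rw [h1]
    refine (ENNReal.ofReal_le_ofReal (hEvar n)).trans ?_
    rw [ENNReal.ofReal_sum_of_nonneg (fun _ _ => dist_nonneg)]
    refine Finset.sum_le_sum fun i hi => ?_
    obtain ⟨h1, h2⟩ := hIcc n i hi
    have hsubIcc : uIcc ((E n).2 i).1 ((E n).2 i).2 ⊆ Icc a b := by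
      rw [← uIcc_of_le hab.le]
      exact uIcc_subset_uIcc (by rwa [uIcc_of_le hab.le]) (by rwa [uIcc_of_le hab.le])
    have hivt := intermediate_value_uIcc (hc.mono hsubIcc)
    have hcover : uIcc (w ((E n).2 i).1) (w ((E n).2 i).2) ⊆
        A n i ∪ {w (min ((E n).2 i).1 ((E n).2 i).2)} := by
      intro z hz
      obtain ⟨t, ht, rfl⟩ := hivt hz
      by_cases htm : t = min ((E n).2 i).1 ((E n).2 i).2
      · right; rw [htm]; rfl
      · left
        refine ⟨t, ?_, rfl⟩
        rw [uIcc, mem_Icc] at ht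
        exact ⟨lt_of_le_of_ne ht.1 (Ne.symm htm), ht.2⟩
    have hvol : volume (uIcc (w ((E n).2 i).1) (w ((E n).2 i).2)) ≤ volume (A n i) := by
      refine (measure_mono hcover).trans ((measure_union_le _ _).trans ?_)
      simp
    refine le_trans (le_of_eq ?_) hvol
    rw [Real.volume_interval, Real.dist_eq, abs_sub_comm]
  -- the limsup set
  set F : ℕ → Set ℝ := fun n => ⋃ i ∈ Finset.range (E n).1, uIoc ((E n).2 i).1 ((E n).2 i).2 with hF
  have hFvol : ∀ n, volume (F n) ≤ ENNReal.ofReal ((1 / 2 : ℝ) ^ n) := by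
    intro n
    refine (measure_biUnion_finset_le _ _).trans ?_
    refine le_trans ?_ (ENNReal.ofReal_le_ofReal (hElen n).le)
    rw [ENNReal.ofReal_sum_of_nonneg (fun _ _ => dist_nonneg)]
    refine Finset.sum_le_sum fun i _ => ?_
    refine (measure_mono uIoc_subset_uIcc).trans ?_
    rw [Real.volume_interval, Real.dist_eq, abs_sub_comm]
  have hZ0 : volume (limsup F atTop) = 0 := by
    refine measure_limsup_atTop_eq_zero ?_
    refine ne_top_of_le_ne_top ?_ (ENNReal.tsum_le_tsum hFvol)
    rw [← ENNReal.ofReal_tsum_of_nonneg (fun n => by positivity)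
      (summable_geometric_of_lt_one (by norm_num) (by norm_num))]
    exact ENNReal.ofReal_ne_top
  have hZsub : limsup F atTop ⊆ Icc a b := by
    intro t ht
    rw [mem_limsup_iff_frequently_mem] at ht
    obtain ⟨n, hn⟩ := ht.exists
    simp only [hF, mem_iUnion, Finset.mem_range] at hn
    obtain ⟨i, hi, hti⟩ := hn
    exact Ioc_subset_Icc_self (hsub n i hi hti)
  have hwZ : volume (w '' limsup F atTop) = 0 := hN _ hZsub hZ0
  -- pointwise convergence
  have hlim : ∀ᵐ y, Tendsto (fun n => G n y) atTop (𝓝 0) := by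
    have h1 : ∀ᵐ y, y ∉ w '' limsup F atTop := by
      rw [ae_iff]; simp only [not_not]; exact hwZ
    have h2 : ∀ᵐ y, Nb y < ∞ := ae_lt_top hNbmeas hNbint
    filter_upwards [h1, h2] with y hy1 hy2
    -- the fibre is finite
    have hfin : (Ioc a b ∩ w ⁻¹' {y}).Finite := by
      by_contra hinf
      have hinf' : (Ioc a b ∩ w ⁻¹' {y}).Infinite := hinf
      have : ∀ k : ℕ, (k : ℝ≥0∞) ≤ Nb y := by
        intro k
        obtain ⟨K, hK, hKc⟩ := hinf'.exists_subset_card_eq k
        rw [← hKc]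
        exact hcardNb K y fun t ht => ⟨(hK ht).1, (hK ht).2⟩
      have htop : Nb y = ∞ := by
        refine ENNReal.eq_top_of_forall_nnreal_le fun r => ?_
        obtain ⟨k, hk⟩ := exists_nat_ge r
        refine le_trans ?_ (this k)
        exact_mod_cast hk
      exact absurd htop hy2.ne
    have hev : ∀ᶠ n in atTop, ∀ t ∈ hfin.toFinset, t ∉ F n := by
      rw [Filter.eventually_all_finset]
      intro t ht
      have htm := hfin.mem_toFinset.1 ht
      have : t ∉ limsup F atTop := fun h => hy1 ⟨t, h, htm.2⟩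
      rw [mem_limsup_iff_frequently_mem] at this
      simpa using this
    refine tendsto_const_nhds.congr' ?_
    filter_upwards [hev] with n hn
    symm
    simp only [hG]
    refine Finset.sum_eq_zero fun i hi => ?_
    rw [Set.indicator_of_notMem]
    rintro ⟨t, ht, hty⟩
    have hi' := Finset.mem_range.1 hi
    refine hn t (hfin.mem_toFinset.2 ⟨hsub n i hi' ht, hty⟩) ?_
    simp only [hF, mem_iUnion, Finset.mem_range]
    exact ⟨i, hi', ht⟩
  have hdct : Tendsto (fun n => ∫⁻ y, G n y) atTop (𝓝 (∫⁻ _ : ℝ, 0)) :=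
    tendsto_lintegral_of_dominated_convergence Nb hGmeas
      (fun n => Eventually.of_forall (hGle n)) hNbint hlim
  simp only [lintegral_zero] at hdct
  have hpos : 0 < ENNReal.ofReal ε := ENNReal.ofReal_pos.2 hε
  have := hdct.eventually (gt_mem_nhds hpos)
  obtain ⟨n, hn⟩ := this.exists
  exact absurd (hGlow n) (not_le.2 hn)

end Vale.Agent.Lib.P137S
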